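import Vale.Agent.P192.R2.H360.Line
import Vale.Agent.P192.R2.H360.D

set_option linter.all false

/-! Finite image for coarse lines and for products of actions of two virtually cyclic groups. -/

namespace Vale.Agent.P192.R2.H360

/-- statement of (T2) -/
def VCStmt : Prop := ∀ (E : Type) [Group E] (t : E), (Subgroup.zpowers t).FiniteIndex →
    ∃ k : ℕ, ∀ (U : Type) [MulAction E U], ∃ (I : Type) (p : U → I × ℤ), Coarse k p ∧
      ∀ e : E, ∃ C : ℕ, ∀ u, (p (e • u)).1 = (p u).1 ∧ |(p (e • u)).2 - (p u).2| ≤ C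

theorem Coarse.mono {U I : Type} {k k' : ℕ} (hk : k ≤ k') {p : U → I × ℤ} (hp : Coarse k p) :
    Coarse k' p := fun z => (hp z).trans (by exact_mod_cast hk)

/-- colours `n`, displacement `M` -/
theorem LType.of_parts {U V I J : Type} {p : U → I × ℤ} {q : V → J × ℤ} {n M m : ℕ} (hn : n ≤ m)
    (hM : M ≤ m) {h : U × V → U × V} (a : U → Fin n) (b : V → Fin n) (φ : U → Fin n → U)
    (ψ : Fin n → V → V)
    (h1 : ∀ u β, (p (φ u β)).1 = (p u).1 ∧ |(p (φ u β)).2 - (p u).2| ≤ M)
    (h2 : ∀ α v, (q (ψ α v)).1 = (q v).1 ∧ |(q (ψ α v)).2 - (q v).2| ≤ M)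
    (h3 : ∀ u v, h (u, v) = (φ u (b v), ψ (a u) v)) : LType p q m h := by
  have hM' : (M : ℤ) ≤ m := by exact_mod_cast hM
  refine ⟨fun u => Fin.castLE hn (a u), fun v => Fin.castLE hn (b v),
    fun u β => if hβ : (β : ℕ) < n then φ u ⟨β, hβ⟩ else u,
    fun α v => if hα : (α : ℕ) < n then ψ ⟨α, hα⟩ v else v, ?_, ?_, ?_⟩
  · intro u β
    by_cases hβ : (β : ℕ) < n
    · simp only [hβ, dif_pos]
      exact ⟨(h1 u ⟨β, hβ⟩).1, (h1 u ⟨β, hβ⟩).2.trans hM'⟩
    · simp only [hβ, dif_neg, not_false_eq_true]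
      simp
  · intro α v
    by_cases hα : (α : ℕ) < n
    · simp only [hα, dif_pos]
      exact ⟨(h2 ⟨α, hα⟩ v).1, (h2 ⟨α, hα⟩ v).2.trans hM'⟩
    · simp only [hα, dif_neg, not_false_eq_true]
      simp
  · intro u v
    rw [h3 u v]
    have ha : ((Fin.castLE hn (a u) : Fin m) : ℕ) < n := (a u).2
    have hb : ((Fin.castLE hn (b v) : Fin m) : ℕ) < n := (b v).2
    simp only [ha, hb, dif_pos]
    rfl

theorem LType.mono {U V I J : Type} {p : U → I × ℤ} {q : V → J × ℤ} {m m' : ℕ} (hm : m ≤ m')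
    {h : U × V → U × V} (hl : LType p q m h) : LType p q m' h := by
  obtain ⟨a, b, φ, ψ, h1, h2, h3⟩ := hl
  exact LType.of_parts hm hm a b φ ψ h1 h2 h3

/-- (T3) finite image, coarse lines -/
theorem line_full_of (hL : LStmt) (G : Type) [Group G] [Group.IsFinitelyPresented G]
    (hG : IsMulTorsion G) (k : ℕ) (U V I J : Type) (p : U → I × ℤ) (q : V → J × ℤ)
    (hp : Coarse k p) (hq : Coarse k q) (ρ : G →* Equiv.Perm (U × V))
    (h : ∀ g, ∃ m, LType p q m (ρ g)) : Finite ρ.range := by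
  classical
  obtain ⟨n, φ, hφ, -⟩ := Group.IsFinitelyPresented.out (G := G)
  have hS : Subgroup.closure (Set.range fun i : Fin n => φ (FreeGroup.of i)) = ⊤ := by
    have h1 : Set.range (fun i : Fin n => φ (FreeGroup.of i)) = φ '' Set.range FreeGroup.of := by
      rw [← Set.range_comp]; rfl
    rw [h1, ← MonoidHom.map_closure, FreeGroup.closure_range_of, ← MonoidHom.range_eq_map,
      MonoidHom.range_eq_top.2 hφ]
  choose m hm using h
  set M : ℕ := Finset.univ.sup fun i : Fin n =>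
    max (m (φ (FreeGroup.of i))) (m (φ (FreeGroup.of i))⁻¹) with hM
  obtain ⟨N, hN, hNi, hNρ⟩ := hL G hG _ hS M k
  have hker : N ≤ ρ.ker := by
    intro g hg
    rw [MonoidHom.mem_ker]
    refine hNρ U V I J p q hp hq ρ ?_ g hg
    intro s hs
    refine (hm s).mono ?_
    rcases hs with ⟨i, hi⟩ | ⟨i, hi⟩
    · refine le_trans ?_ (Finset.le_sup (f := fun i : Fin n =>
        max (m (φ (FreeGroup.of i))) (m (φ (FreeGroup.of i))⁻¹)) (Finset.mem_univ i))
      have : s = φ (FreeGroup.of i) := hi.symm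
      rw [this]
      exact le_max_left _ _
    · refine le_trans ?_ (Finset.le_sup (f := fun i : Fin n =>
        max (m (φ (FreeGroup.of i))) (m (φ (FreeGroup.of i))⁻¹)) (Finset.mem_univ i))
      have : s = (φ (FreeGroup.of i))⁻¹ := by
        have hi' : φ (FreeGroup.of i) = s⁻¹ := hi
        rw [hi', inv_inv]
      rw [this]
      exact le_max_right _ _
  have hki : ρ.ker.FiniteIndex := Subgroup.finiteIndex_of_le hker
  have : Finite (G ⧸ ρ.ker) := inferInstance
  exact Finite.of_equiv _ (QuotientGroup.quotientKerEquivRange ρ).toEquiv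

/-- (T4) finite image, products of actions of two virtually cyclic groups -/
theorem vc_full_of (hC : VCStmt) (hL : LStmt) (G : Type) [Group G] [Group.IsFinitelyPresented G]
    (hG : IsMulTorsion G) (E F : Type) [Group E] [Group F] (t : E) (s : F)
    (ht : (Subgroup.zpowers t).FiniteIndex) (hs : (Subgroup.zpowers s).FiniteIndex)
    (U V : Type) [MulAction E U] [MulAction F V] (ρ : G →* Equiv.Perm (U × V))
    (h : ∀ g, ∃ (m : ℕ) (a : U → Fin m) (b : V → Fin m) (f : Fin m → Fin m → E × F),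
      ∀ u v, ρ g (u, v) = ((f (a u) (b v)).1 • u, (f (a u) (b v)).2 • v)) :
    Finite ρ.range := by
  classical
  obtain ⟨k₁, hk₁⟩ := hC E t ht
  obtain ⟨k₂, hk₂⟩ := hC F s hs
  obtain ⟨I, p, hp, hpe⟩ := hk₁ U
  obtain ⟨J, q, hq, hqf⟩ := hk₂ V
  choose C₁ hC₁ using hpe
  choose C₂ hC₂ using hqf
  refine line_full_of hL G hG (max k₁ k₂) U V I J p q (hp.mono (le_max_left _ _))
    (hq.mono (le_max_right _ _)) ρ fun g => ?_
  obtain ⟨m, a, b, f, hf⟩ := h g
  set M : ℕ := Finset.univ.sup fun z : Fin m × Fin m =>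
    max (C₁ (f z.1 z.2).1) (C₂ (f z.1 z.2).2) with hM
  have hle : ∀ α β, C₁ (f α β).1 ≤ M ∧ C₂ (f α β).2 ≤ M := by
    intro α β
    have h1 := Finset.le_sup (f := fun z : Fin m × Fin m =>
      max (C₁ (f z.1 z.2).1) (C₂ (f z.1 z.2).2)) (Finset.mem_univ (α, β))
    exact ⟨(le_max_left _ _).trans h1, (le_max_right _ _).trans h1⟩
  refine ⟨max m M, LType.of_parts (le_max_left m M) (le_max_right m M) a b
    (fun u β => (f (a u) β).1 • u) (fun α v => (f α (b v)).2 • v) ?_ ?_ hf⟩
  · intro u β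
    refine ⟨(hC₁ _ u).1, (hC₁ _ u).2.trans ?_⟩
    exact_mod_cast (hle (a u) β).1
  · intro α v
    refine ⟨(hC₂ _ v).1, (hC₂ _ v).2.trans ?_⟩
    exact_mod_cast (hle α (b v)).2

/-- a locally constant function on a product of compact spaces is given by finitely many
colours of the two coordinates -/
theorem exists_fin_colours {U V W : Type} [TopologicalSpace U] [TopologicalSpace V]
    [CompactSpace U] [CompactSpace V] (w₀ : W) (F : U × V → W) (hF : IsLocallyConstant F) :
    ∃ (m : ℕ) (a : U → Fin m) (b : V → Fin m) (f : Fin m → Fin m → W),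
      ∀ u v, F (u, v) = f (a u) (b v) := by
  classical
  letI : TopologicalSpace W := ⊥
  haveI : DiscreteTopology W := ⟨rfl⟩
  have hFc : Continuous F := hF.continuous
  haveI : Finite (Set.range fun u => fun v => F (u, v)) := exists_colours F hFc
  haveI : Finite (Set.range fun v => fun u => F (u, v)) := exists_colours' F hFc
  obtain ⟨m₁, ⟨e₁⟩⟩ := Finite.exists_equiv_fin (Set.range fun u => fun v => F (u, v))
  obtain ⟨m₂, ⟨e₂⟩⟩ := Finite.exists_equiv_fin (Set.range fun v => fun u => F (u, v))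
  let a : U → Fin (max m₁ m₂) := fun u =>
    Fin.castLE (le_max_left _ _) (e₁ ⟨fun v => F (u, v), u, rfl⟩)
  let b : V → Fin (max m₁ m₂) := fun v =>
    Fin.castLE (le_max_right _ _) (e₂ ⟨fun u => F (u, v), v, rfl⟩)
  have ha : ∀ u u', a u = a u' → ∀ v, F (u, v) = F (u', v) := by
    intro u u' huu v
    have h5 := Fin.castLE_injective (le_max_left m₁ m₂) huu
    have h6 := e₁.injective h5
    exact congrFun (congrArg Subtype.val h6) v
  have hb : ∀ v v', b v = b v' → ∀ u, F (u, v) = F (u, v') := by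
    intro v v' hvv u
    have h5 := Fin.castLE_injective (le_max_right m₁ m₂) hvv
    have h6 := e₂.injective h5
    exact congrFun (congrArg Subtype.val h6) u
  refine ⟨max m₁ m₂, a, b, fun α β => if hαβ : ∃ z : U × V, a z.1 = α ∧ b z.2 = β then
    F hαβ.choose else w₀, ?_⟩
  intro u v
  have hex : ∃ z : U × V, a z.1 = a u ∧ b z.2 = b v := ⟨(u, v), rfl, rfl⟩
  have h5 : F hex.choose = F (u, v) := by
    have h6 := hex.choose_spec
    have h7 : F hex.choose = F (u, hex.choose.2) := ha _ _ h6.1 _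
    rw [h7]
    exact hb _ _ h6.2 u
  show F (u, v) = if hαβ : ∃ z : U × V, a z.1 = a u ∧ b z.2 = b v then F hαβ.choose else w₀
  rw [dif_pos hex, h5]

/-- (T5) topological full groups of products of actions of two virtually cyclic groups -/
theorem vc_top_full_of (hC : VCStmt) (hL : LStmt) (G : Type) [Group G]
    [Group.IsFinitelyPresented G] (hG : IsMulTorsion G) (E F : Type) [Group E] [Group F] (t : E)
    (s : F) (ht : (Subgroup.zpowers t).FiniteIndex) (hs : (Subgroup.zpowers s).FiniteIndex)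
    (U V : Type) [TopologicalSpace U] [TopologicalSpace V] [CompactSpace U] [CompactSpace V]
    [MulAction E U] [MulAction F V] (ρ : G →* Equiv.Perm (U × V))
    (h : ∀ g, ∃ c : U × V → E × F, IsLocallyConstant c ∧
      ∀ z, ρ g z = ((c z).1 • z.1, (c z).2 • z.2)) : Finite ρ.range := by
  refine vc_full_of hC hL G hG E F t s ht hs U V ρ fun g => ?_
  obtain ⟨c, hc, hz⟩ := h g
  obtain ⟨m, a, b, f, hf⟩ := exists_fin_colours (1 : E × F) c hc
  refine ⟨m, a, b, f, fun u v => ?_⟩
  rw [hz (u, v), hf u v]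

end Vale.Agent.P192.R2.H360
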